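import Vale.Agent.Lib.P181.Stable.Limit

/-!
# P181 (Foulkes' conjecture): Foulkes' inequality for the stable plethysm coefficients

Fix `a ≥ 1` and a tail `nu = (nu_1, nu_2, ...)`; write `nu[N] = (N - |nu|, nu_1, nu_2, ...)`.

(1) the multiplicity of `nu[a b]` in `Sym^a (Sym^b V)` does not depend on `b` for `b ≥ nu_1`;
(2) the multiplicity of `nu[c a]` in `Sym^c (Sym^a V)` does not depend on `c` for
    `2 c + 1 ≥ nu_1 + |nu|`;
(3) for every `b` and every `c` with `2 c + 1 ≥ nu_1 + |nu|`, the multiplicity of `nu[a b]` in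
    `Sym^a (Sym^b V)` is at most the multiplicity of `nu[c a]` in `Sym^c (Sym^a V)`.
-/

namespace Vale.Agent.Results.P181.A_StableLimit

open Vale.Agent.Lib.P181

theorem result (k a : ℕ) (ha : 1 ≤ a) (nu : Fin (k + 1) → ℕ) :
    (∀ b b' : ℕ, nu 0 ≤ b → b ≤ b' →
      mult (k + 2) a b' (Fin.cons (a * b' - ∑ i, nu i) nu)
        = mult (k + 2) a b (Fin.cons (a * b - ∑ i, nu i) nu)) ∧
    (∀ c c' : ℕ, nu 0 + ∑ i, nu i ≤ 2 * c + 1 → c ≤ c' →
      mult (k + 2) c' a (Fin.cons (c' * a - ∑ i, nu i) nu)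
        = mult (k + 2) c a (Fin.cons (c * a - ∑ i, nu i) nu)) ∧
    (∀ b c : ℕ, nu 0 + ∑ i, nu i ≤ 2 * c + 1 →
      mult (k + 2) a b (Fin.cons (a * b - ∑ i, nu i) nu)
        ≤ mult (k + 2) c a (Fin.cons (c * a - ∑ i, nu i) nu)) :=
  ⟨fun b b' h hb => inner_stable a b b' ha nu h hb,
   fun c c' h hc => outer_stable c c' a nu h hc,
   fun b c h => stable_limit_le a b c ha nu h⟩

end Vale.Agent.Results.P181.A_StableLimit
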