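import Vale.Agent.Lib.P181.Main

/-!
# P181 (Foulkes' conjecture): stability, propagation and reduction to `lam_2 ≥ b`

(1) if `lam_2 ≤ b`, the multiplicity of `lam + a e_0` in `Sym^a (Sym^(b+1) V)` equals the
multiplicity of `lam` in `Sym^a (Sym^b V)`;
(2) if `lam_2 ≤ b`, Foulkes' inequality for `(a, b, lam)` implies it for `(a, b+1, lam + a e_0)`;
(3) for fixed `a`, Foulkes' inequalities for all `b ≥ a` and all weights follow from the ones
for `b > a` and weights whose second part is at least `b`.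
-/

namespace Vale.Agent.Results.P181.C_Reduction

open Vale.Agent.Lib.P181

theorem result (n a : ℕ) :
    (∀ (b : ℕ) (lam : Fin (n + 2) → ℕ), lam 1 ≤ b →
      mult (n + 2) a (b + 1) (lam + Pi.single 0 a) = mult (n + 2) a b lam) ∧
    (∀ (b : ℕ) (lam : Fin (n + 2) → ℕ), lam 1 ≤ b →
      mult (n + 2) a b lam ≤ mult (n + 2) b a lam →
      mult (n + 2) a (b + 1) (lam + Pi.single 0 a)
        ≤ mult (n + 2) (b + 1) a (lam + Pi.single 0 a)) ∧
    ((∀ b : ℕ, a < b → ∀ lam : Fin (n + 2) → ℕ, b ≤ lam 1 →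
        mult (n + 2) a b lam ≤ mult (n + 2) b a lam) →
      ∀ b : ℕ, a ≤ b → ∀ lam : Fin (n + 2) → ℕ,
        mult (n + 2) a b lam ≤ mult (n + 2) b a lam) :=
  ⟨fun b lam h1 => mult_shift_eq a b lam h1,
   fun b lam h1 h => propagation a b lam h1 h,
   fun H b hab lam => reduction a H b hab lam⟩

end Vale.Agent.Results.P181.C_Reduction
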