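import Vale.Agent.Results.P181.A_General
import Vale.Agent.Results.P181.A_StableLimit
import Vale.Agent.Results.P181.C_Reduction

/-!
# P181: all the multiplicity results on Foulkes' conjecture in one statement

`mult n p q lam` is the dimension of the space of highest weight vectors of weight `lam` in
`Sym^p (Sym^q ℂ^n)`.  The four parts are: the (generalised) Foulkes inequality in the range
`lam 1 ≤ d` or `lam 1 + (boxes below the first row) ≤ 2 c + 1`; inner and outer stability with
explicit bounds; the comparison of every coefficient with the stable outer coefficient; and the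
reduction of Foulkes' conjecture to the weights whose second coordinate is at least `b`.
-/

namespace Vale.Agent.Results.P181.A0_All

open Vale.Agent.Lib.P181

theorem result (n : ℕ) :
    (∀ (a b c d : ℕ), 1 ≤ a → a ≤ c → a ≤ d → a * b = c * d → ∀ lam : Fin (n + 2) → ℕ,
      (lam 1 ≤ d ∨ lam 1 + ∑ i : Fin (n + 1), lam i.succ ≤ 2 * c + 1) →
        mult (n + 2) a b lam ≤ mult (n + 2) c d lam) ∧
    (∀ (a : ℕ), 1 ≤ a → ∀ nu : Fin (n + 1) → ℕ,
      (∀ b b' : ℕ, nu 0 ≤ b → b ≤ b' →
        mult (n + 2) a b' (Fin.cons (a * b' - ∑ i, nu i) nu)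
          = mult (n + 2) a b (Fin.cons (a * b - ∑ i, nu i) nu)) ∧
      (∀ c c' : ℕ, nu 0 + ∑ i, nu i ≤ 2 * c + 1 → c ≤ c' →
        mult (n + 2) c' a (Fin.cons (c' * a - ∑ i, nu i) nu)
          = mult (n + 2) c a (Fin.cons (c * a - ∑ i, nu i) nu)) ∧
      (∀ b c : ℕ, nu 0 + ∑ i, nu i ≤ 2 * c + 1 →
        mult (n + 2) a b (Fin.cons (a * b - ∑ i, nu i) nu)
          ≤ mult (n + 2) c a (Fin.cons (c * a - ∑ i, nu i) nu))) ∧
    (∀ a : ℕ,
      (∀ b : ℕ, a < b → ∀ lam : Fin (n + 2) → ℕ, b ≤ lam 1 →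
        mult (n + 2) a b lam ≤ mult (n + 2) b a lam) →
      ∀ b : ℕ, a ≤ b → ∀ lam : Fin (n + 2) → ℕ,
        mult (n + 2) a b lam ≤ mult (n + 2) b a lam) :=
  ⟨fun a b c d ha hac had h lam hl => A_General.result n a b c d ha hac had h lam hl,
   fun a ha nu => A_StableLimit.result n a ha nu,
   fun a => (C_Reduction.result n a).2.2⟩

end Vale.Agent.Results.P181.A0_All
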