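import Vale.Agent.Lib.P181.Main
import Vale.Agent.Lib.P181.Stable.Final

/-!
# P181 (Foulkes' conjecture): the multiplicity inequality in two large ranges of `lam`

For all `a ≤ b`, every `V = ℂ^(n+2)` and every weight `lam = (lam_1, lam_2, ...)` such that

* `lam_2 ≤ a`, or
* `lam_2 + (lam_2 + lam_3 + ...) ≤ 2 b + 1` (for instance `lam_2 + lam_3 + ... ≤ b`),

the multiplicity of the irreducible module of highest weight `lam` in `Sym^a (Sym^b V)`
(the dimension of the space of highest weight vectors of weight `lam`) is at most its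
multiplicity in `Sym^b (Sym^a V)`.
-/

namespace Vale.Agent.Results.P181.A_Combined

open Vale.Agent.Lib.P181

theorem result (n a b : ℕ) (hab : a ≤ b) (lam : Fin (n + 2) → ℕ)
    (h : lam 1 ≤ a ∨ lam 1 + ∑ i : Fin (n + 1), lam i.succ ≤ 2 * b + 1) :
    mult (n + 2) a b lam ≤ mult (n + 2) b a lam := by
  rcases h with h | h
  · exact foulkes_second_row a b hab lam h
  · rcases Nat.eq_zero_or_pos a with ha | ha
    · by_cases hz : mult (n + 2) a b lam = 0
      · rw [hz]
        exact Nat.zero_le _
      · have h1 := sum_eq_of_mult_ne_zero hz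
        rw [ha, Nat.zero_mul] at h1
        have h2 : lam 1 = 0 := (Finset.sum_eq_zero_iff.mp h1) 1 (Finset.mem_univ _)
        exact foulkes_second_row a b hab lam (by rw [h2]; exact Nat.zero_le _)
    · exact stable_foulkes_ext a b ha lam h

end Vale.Agent.Results.P181.A_Combined
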