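import Vale.Agent.Lib.P181.Main
import Vale.Agent.Lib.P181.Stable.Final

/-!
# P181 (Foulkes' conjecture): the generalised inequality in two large ranges of `lam`

For `a b = c d` with `1 ≤ a ≤ min (c, d)`, every `V = ℂ^(n+2)` and every weight
`lam = (lam_1, lam_2, ...)` such that

* `lam_2 ≤ d`, or
* `lam_2 + (lam_2 + lam_3 + ...) ≤ 2 c + 1` (for instance `lam_2 + lam_3 + ... ≤ c`),

the multiplicity of the irreducible module of highest weight `lam` in `Sym^a (Sym^b V)`
is at most its multiplicity in `Sym^c (Sym^d V)`.
The case `(c, d) = (b, a)` is Foulkes' inequality for these weights.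
-/

namespace Vale.Agent.Results.P181.A_General

open Vale.Agent.Lib.P181

theorem result (n a b c d : ℕ) (ha : 1 ≤ a) (hac : a ≤ c) (had : a ≤ d) (h : a * b = c * d)
    (lam : Fin (n + 2) → ℕ)
    (hl : lam 1 ≤ d ∨ lam 1 + ∑ i : Fin (n + 1), lam i.succ ≤ 2 * c + 1) :
    mult (n + 2) a b lam ≤ mult (n + 2) c d lam := by
  rcases hl with hl | hl
  · have hdb : d ≤ b := by
      have h1 : c * d ≤ c * b := by
        rw [← h]
        exact Nat.mul_le_mul_right b hac
      exact Nat.le_of_mul_le_mul_left h1 (lt_of_lt_of_le ha hac)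
    exact general_second_row a b c d hac hdb h lam hl
  · exact stable_general_ext a b c d ha had h lam hl

end Vale.Agent.Results.P181.A_General
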