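import Vale.Agent.Lib.P181.Stable.Final

/-!
# P181 (Foulkes' conjecture): the multiplicity inequality in the stable range

For all `a, b ≥ 1`, every `V = ℂ^(k+1)` and every weight `lam = (lam_1, lam_2, ...)` with
`lam_2 + lam_3 + ... ≤ b` (at most `b` boxes below the first row), the multiplicity of the
irreducible module of highest weight `lam` in `Sym^a (Sym^b V)` (the dimension of the space of
highest weight vectors of weight `lam`) is at most its multiplicity in `Sym^b (Sym^a V)`.
-/

namespace Vale.Agent.Results.P181.A_Stable

open Vale.Agent.Lib.P181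

theorem result (k a b : ℕ) (ha : 1 ≤ a) (lam : Fin (k + 1) → ℕ)
    (h : ∑ i : Fin k, lam i.succ ≤ b) :
    mult (k + 1) a b lam ≤ mult (k + 1) b a lam :=
  stable_foulkes a b ha lam h

end Vale.Agent.Results.P181.A_Stable
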