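import Vale.Agent.Lib.P181.Main

/-!
# P181 (Foulkes' conjecture): the generalised inequality for all `lam` with `lam_2 ≤ d`

For `a b = c d`, `a ≤ c` (so `d ≤ b`), every `V = ℂ^(n+2)` and every weight `lam` whose second part
is at most `d`, the multiplicity of the irreducible module of highest weight `lam` in
`Sym^a (Sym^b V)` is at most its multiplicity in `Sym^c (Sym^d V)`.
The case `(c, d) = (b, a)` is Foulkes' inequality for the weights with `lam_2 ≤ a`.
-/

namespace Vale.Agent.Results.P181.B_General

open Vale.Agent.Lib.P181

theorem result (n a b c d : ℕ) (hac : a ≤ c) (hdb : d ≤ b) (h : a * b = c * d)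
    (lam : Fin (n + 2) → ℕ) (h1 : lam 1 ≤ d) :
    mult (n + 2) a b lam ≤ mult (n + 2) c d lam :=
  general_second_row a b c d hac hdb h lam h1

end Vale.Agent.Results.P181.B_General
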