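import Vale.Agent.Lib.P181.Main

/-!
# P181 (Foulkes' conjecture): the multiplicity inequality for all `lam` with `lam_2 ≤ a`

For all `a ≤ b`, every `V = ℂ^(n+2)` and every weight `lam` whose second part is at most `a`,
the multiplicity of the irreducible module of highest weight `lam` in `Sym^a (Sym^b V)`
(the dimension of the space of highest weight vectors of weight `lam`) is at most its
multiplicity in `Sym^b (Sym^a V)`.
-/

namespace Vale.Agent.Results.P181.D_SecondRow

open Vale.Agent.Lib.P181

theorem result (n a b : ℕ) (hab : a ≤ b) (lam : Fin (n + 2) → ℕ) (h : lam 1 ≤ a) :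
    mult (n + 2) a b lam ≤ mult (n + 2) b a lam :=
  foulkes_second_row a b hab lam h

end Vale.Agent.Results.P181.D_SecondRow
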