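import Mathlib

/-!
# P181 (Foulkes' conjecture): the dimension inequality for all `a ≤ b` and all `V`

`Sym (Fin n) b` indexes the monomial basis of `Sym^b V` for `V = ℂ^n`, and
`Sym (Sym (Fin n) b) a` indexes the monomial basis of `Sym^a (Sym^b V)`.
We prove `dim Sym^a (Sym^b V) ≤ dim Sym^b (Sym^a V)` for all `1 ≤ a ≤ b` and all `n`.
-/

namespace Vale.Agent.Results.P181.DimIneq

open Nat

/-- `(k+1) * multichoose M (k+1) = (M+k) * multichoose M k`. -/
theorem succ_mul_multichoose (M k : ℕ) :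
    (k + 1) * multichoose M (k + 1) = (M + k) * multichoose M k := by
  rcases M with _ | M
  · rcases k with _ | k
    · simp
    · simp
  · rw [multichoose_eq, multichoose_eq]
    have h1 : M + 1 + (k + 1) - 1 = (M + k) + 1 := by omega
    have h2 : M + 1 + k - 1 = M + k := by omega
    rw [h1, h2]
    have := Nat.add_one_mul_choose_eq (M + k) k
    nlinarith [this]

/-- rational version -/
theorem mc_succ (M k : ℕ) :
    ((k : ℚ) + 1) * (multichoose M (k + 1) : ℚ) = ((M : ℚ) + k) * (multichoose M k : ℚ) := by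
  have := succ_mul_multichoose M k
  exact_mod_cast this

theorem mc_pos (M k : ℕ) (hM : 1 ≤ M) : 0 < multichoose M k := by
  rw [multichoose_eq]
  apply Nat.choose_pos
  omega

/-- `1 + k (n-1) ≤ N_k`, written additively. -/
theorem mc_lower (n k : ℕ) (hn : 1 ≤ n) : 1 + k * n ≤ multichoose n k + k := by
  induction k with
  | zero => simp
  | succ k ih =>
    obtain ⟨m, rfl⟩ : ∃ m, n = m + 1 := ⟨n - 1, by omega⟩
    rw [multichoose_succ_succ]
    have h2 : m ≤ multichoose m (k + 1) := by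
      rcases m with _ | m
      · simp
      · have : multichoose (m + 1) 1 ≤ multichoose (m + 1) (k + 1) := by
          clear ih hn
          induction k with
          | zero => simp
          | succ k ih2 =>
            have := succ_mul_multichoose (m + 1) (k + 1)
            have hp := mc_pos (m + 1) (k + 1) (by omega)
            nlinarith
        simpa using this
    nlinarith


/-- `N n k = dim Sym^k (ℂ^n)` as a rational number. -/
def N (n k : ℕ) : ℚ := (multichoose n k : ℚ)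

theorem N_pos (n k : ℕ) (hn : 1 ≤ n) : 0 < N n k := by
  unfold N
  exact_mod_cast mc_pos n k hn

theorem N_succ (n k : ℕ) : ((k : ℚ) + 1) * N n (k + 1) = ((n : ℚ) + k) * N n k := by
  unfold N
  exact mc_succ n k

theorem N_lower (n k : ℕ) (hn : 1 ≤ n) : 1 + (k : ℚ) * n ≤ N n k + k := by
  unfold N
  exact_mod_cast mc_lower n k hn

theorem G_step (n k : ℕ) (hn : 1 ≤ n) :
    0 ≤ N n k * N n (k + 1) + (k : ℚ) * (k + 2) * N n k - ((k : ℚ) + 1) ^ 2 * N n (k + 1) := by
  have h1 := N_succ n k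
  have h2 := N_lower n (k + 1) hn
  have h3 := N_pos n k hn
  push_cast at h2
  have hk : (0 : ℚ) ≤ k := Nat.cast_nonneg k
  -- multiply by (k+1)
  have key : ((k : ℚ) + 1) * (N n k * N n (k + 1) + (k : ℚ) * (k + 2) * N n k
      - ((k : ℚ) + 1) ^ 2 * N n (k + 1))
      = N n k * (((k : ℚ) + 1) * (N n (k + 1) + (k + 1) - (1 + (k + 1) * n))) := by
    have e1 : ((k : ℚ) + 1) * (N n k * N n (k + 1)) = N n k * (((k : ℚ) + 1) * N n (k + 1)) := by
      ring
    have e2 : ((k : ℚ) + 1) * (((k : ℚ) + 1) ^ 2 * N n (k + 1))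
        = ((k : ℚ) + 1) ^ 2 * (((n : ℚ) + k) * N n k) := by
      rw [← h1]; ring
    calc ((k : ℚ) + 1) * (N n k * N n (k + 1) + (k : ℚ) * (k + 2) * N n k
      - ((k : ℚ) + 1) ^ 2 * N n (k + 1))
        = ((k : ℚ) + 1) * (N n k * N n (k + 1)) + ((k : ℚ) + 1) * ((k : ℚ) * (k + 2) * N n k)
          - ((k : ℚ) + 1) * (((k : ℚ) + 1) ^ 2 * N n (k + 1)) := by ring
      _ = N n k * (((k : ℚ) + 1) * N n (k + 1)) + ((k : ℚ) + 1) * ((k : ℚ) * (k + 2) * N n k)
          - ((k : ℚ) + 1) ^ 2 * (((n : ℚ) + k) * N n k) := by rw [e1, e2]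
      _ = N n k * (((k : ℚ) + 1) * (N n (k + 1) + (k + 1) - (1 + (k + 1) * n))) := by ring
  have hpos : 0 ≤ N n k * (((k : ℚ) + 1) * (N n (k + 1) + (k + 1) - (1 + (k + 1) * n))) := by
    apply mul_nonneg h3.le
    apply mul_nonneg (by linarith)
    linarith
  rw [← key] at hpos
  have hk1 : (0 : ℚ) < (k : ℚ) + 1 := by linarith
  exact nonneg_of_mul_nonneg_right hpos hk1

theorem G_nonneg (n a t : ℕ) (hn : 1 ≤ n) (ha : 1 ≤ a) :
    0 ≤ (t : ℚ) * N n a * N n (a + t) + (a : ℚ) * ((a : ℚ) + t + 1) * N n a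
      - ((a : ℚ) + 1) * ((a : ℚ) + t) * N n (a + t) := by
  induction t with
  | zero => simp; ring_nf; exact le_refl _
  | succ t ih =>
    have hS := G_step n (a + t) hn
    have hx := N_pos n a hn
    have hy := N_pos n (a + t) hn
    have hz := N_pos n (a + t + 1) hn
    have ha' : (1 : ℚ) ≤ a := by exact_mod_cast ha
    have ht : (0 : ℚ) ≤ t := Nat.cast_nonneg t
    push_cast at hS ⊢
    have hadd : a + (t + 1) = a + t + 1 := by ring
    rw [hadd]
    set x := N n a
    set y := N n (a + t)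
    set z := N n (a + t + 1)
    have key : (((a : ℚ) + t) * y) * (((t : ℚ) + 1) * x * z + (a : ℚ) * ((a : ℚ) + (t + 1) + 1) * x
        - ((a : ℚ) + 1) * ((a : ℚ) + (t + 1)) * z)
        = ((t : ℚ) * x * y + (a : ℚ) * ((a : ℚ) + t + 1) * x - ((a : ℚ) + 1) * ((a : ℚ) + t) * y)
            * (((a : ℚ) + t + 1) * z)
          + (y * z + ((a : ℚ) + t) * ((a : ℚ) + t + 2) * y - ((a : ℚ) + t + 1) ^ 2 * z)
            * ((a : ℚ) * x) := by ring
    have hR : 0 ≤ ((t : ℚ) * x * y + (a : ℚ) * ((a : ℚ) + t + 1) * x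
            - ((a : ℚ) + 1) * ((a : ℚ) + t) * y) * (((a : ℚ) + t + 1) * z)
          + (y * z + ((a : ℚ) + t) * ((a : ℚ) + t + 2) * y - ((a : ℚ) + t + 1) ^ 2 * z)
            * ((a : ℚ) * x) := by
      apply add_nonneg
      · apply mul_nonneg ih
        apply mul_nonneg (by linarith) hz.le
      · apply mul_nonneg hS
        apply mul_nonneg (by linarith) hx.le
    rw [← key] at hR
    have hpos : 0 < ((a : ℚ) + t) * y := mul_pos (by linarith) hy
    exact nonneg_of_mul_nonneg_right hR hpos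

/-- the cross inequality `(***)` -/
theorem cross (n a t : ℕ) (hn : 1 ≤ n) (ha : 1 ≤ a) :
    (N n a + ((a : ℚ) + t)) * (N n (a + t + 1) + a)
      ≤ (N n (a + 1) + ((a : ℚ) + t)) * (N n (a + t) + a) := by
  have hG := G_nonneg n a t hn ha
  have h1 := N_succ n a
  have h2 := N_succ n (a + t)
  push_cast at h2
  have hn' : (1 : ℚ) ≤ n := by exact_mod_cast hn
  have ha' : (1 : ℚ) ≤ a := by exact_mod_cast ha
  have ht : (0 : ℚ) ≤ t := Nat.cast_nonneg t
  set x := N n a
  set y := N n (a + t)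
  set x' := N n (a + 1)
  set y' := N n (a + t + 1)
  have key : ((a : ℚ) + 1) * ((a : ℚ) + t + 1) *
      ((x' + ((a : ℚ) + t)) * (y + a) - (x + ((a : ℚ) + t)) * (y' + a))
      = ((n : ℚ) - 1) * ((t : ℚ) * x * y + (a : ℚ) * ((a : ℚ) + t + 1) * x
      - ((a : ℚ) + 1) * ((a : ℚ) + t) * y) := by
    have e1 : ((a : ℚ) + 1) * ((a : ℚ) + t + 1) * ((x' + ((a : ℚ) + t)) * (y + a))
        = ((a : ℚ) + t + 1) * ((((a : ℚ) + 1) * x' + ((a : ℚ) + 1) * ((a : ℚ) + t)) * (y + a)) := by
      ring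
    have e2 : ((a : ℚ) + 1) * ((a : ℚ) + t + 1) * ((x + ((a : ℚ) + t)) * (y' + a))
        = ((a : ℚ) + 1) * ((x + ((a : ℚ) + t)) * ((((a : ℚ) + t + 1) * y') + ((a : ℚ) + t + 1) * a)) := by
      ring
    rw [mul_sub, e1, e2, h1, h2]
    ring
  have hR : 0 ≤ ((n : ℚ) - 1) * ((t : ℚ) * x * y + (a : ℚ) * ((a : ℚ) + t + 1) * x
      - ((a : ℚ) + 1) * ((a : ℚ) + t) * y) := mul_nonneg (by linarith) hG
  rw [← key] at hR
  have hpos : 0 < ((a : ℚ) + 1) * ((a : ℚ) + t + 1) := by positivity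
  have := nonneg_of_mul_nonneg_right hR hpos
  linarith

/-- `T n a k = dim Sym^a (Sym^k ℂ^n)` as a rational number. -/
def T (n a k : ℕ) : ℚ := (multichoose (multichoose n k) a : ℚ)

theorem T_succ (n a k : ℕ) : ((a : ℚ) + 1) * T n (a + 1) k = (N n k + a) * T n a k := by
  unfold T N
  exact mc_succ (multichoose n k) a

theorem T_pos (n a k : ℕ) (hn : 1 ≤ n) : 0 < T n a k := by
  unfold T
  exact_mod_cast mc_pos _ a (mc_pos n k hn)

/-- growth comparison: `(k+1) dim S_{k+1} ≤ (N_a + k) dim S_k` for `k ≥ a`. -/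
theorem growth (n a : ℕ) (hn : 1 ≤ n) (ha : 1 ≤ a) : ∀ t : ℕ,
    ((a : ℚ) + t + 1) * T n a (a + t + 1) ≤ (N n a + ((a : ℚ) + t)) * T n a (a + t) := by
  induction a, ha using Nat.le_induction with
  | base =>
    intro t
    have h := N_succ n (1 + t)
    have e1 : T n 1 (1 + t + 1) = N n (1 + t + 1) := by unfold T N; simp
    have e2 : T n 1 (1 + t) = N n (1 + t) := by unfold T N; simp
    have e3 : N n 1 = n := by unfold N; simp
    rw [e1, e2, e3]
    push_cast at h ⊢
    linarith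
  | succ a ha ih =>
    intro t
    have hI := ih (t + 1)
    have hc := cross n a (t + 1) hn ha
    have s1 := T_succ n a (a + (t + 1) + 1)
    have s2 := T_succ n a (a + (t + 1))
    have p1 := T_pos n a (a + (t + 1) + 1) hn
    have p2 := T_pos n a (a + (t + 1)) hn
    have q1 := N_pos n (a + (t + 1) + 1) hn
    have q2 := N_pos n (a + (t + 1)) hn
    have q3 := N_pos n a hn
    have q4 := N_pos n (a + 1) hn
    have ha' : (1 : ℚ) ≤ a := by exact_mod_cast ha
    have ht : (0 : ℚ) ≤ t := Nat.cast_nonneg t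
    have i1 : a + 1 + t + 1 = a + (t + 1) + 1 := by ring
    have i2 : a + 1 + t = a + (t + 1) := by ring
    rw [i1, i2]
    push_cast at hI hc ⊢
    set A := T n a (a + (t + 1) + 1)
    set B := T n a (a + (t + 1))
    set A' := T n (a + 1) (a + (t + 1) + 1)
    set B' := T n (a + 1) (a + (t + 1))
    set y' := N n (a + (t + 1) + 1)
    set y := N n (a + (t + 1))
    set x := N n a
    set x' := N n (a + 1)
    -- multiply the goal by (a+1)
    have hpos : (0 : ℚ) < (a : ℚ) + 1 := by linarith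
    have goal' : ((a : ℚ) + 1) * (((a : ℚ) + 1 + t + 1) * A')
        ≤ ((a : ℚ) + 1) * ((x' + ((a : ℚ) + 1 + t)) * B') := by
      have l1 : ((a : ℚ) + 1) * (((a : ℚ) + 1 + t + 1) * A')
          = ((a : ℚ) + 1 + t + 1) * ((y' + a) * A) := by rw [← s1]; ring
      have l2 : ((a : ℚ) + 1) * ((x' + ((a : ℚ) + 1 + t)) * B')
          = (x' + ((a : ℚ) + 1 + t)) * ((y + a) * B) := by rw [← s2]; ring
      rw [l1, l2]
      have step1 : ((a : ℚ) + 1 + t + 1) * ((y' + a) * A)
          ≤ (y' + a) * ((x + ((a : ℚ) + (t + 1))) * B) := by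
        have : ((a : ℚ) + 1 + t + 1) * ((y' + a) * A)
            = (y' + a) * (((a : ℚ) + (t + 1) + 1) * A) := by ring
        rw [this]
        apply mul_le_mul_of_nonneg_left hI (by linarith)
      have step2 : (y' + a) * ((x + ((a : ℚ) + (t + 1))) * B)
          ≤ (x' + ((a : ℚ) + 1 + t)) * ((y + a) * B) := by
        have e1 : (y' + a) * ((x + ((a : ℚ) + (t + 1))) * B)
            = ((x + ((a : ℚ) + (t + 1))) * (y' + a)) * B := by ring
        have e2 : (x' + ((a : ℚ) + 1 + t)) * ((y + a) * B)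
            = ((x' + ((a : ℚ) + (t + 1))) * (y + a)) * B := by ring
        rw [e1, e2]
        apply mul_le_mul_of_nonneg_right hc p2.le
      linarith
    exact le_of_mul_le_mul_left goal' hpos

/-- `dim Sym^a (Sym^b ℂ^n) ≤ dim Sym^b (Sym^a ℂ^n)` in terms of `multichoose`. -/
theorem main_q (n a : ℕ) (hn : 1 ≤ n) (ha : 1 ≤ a) : ∀ t : ℕ,
    T n a (a + t) ≤ T n (a + t) a := by
  intro t
  induction t with
  | zero => simp
  | succ t ih =>
    have hg := growth n a hn ha t
    have s := T_succ n (a + t) a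
    have ha' : (1 : ℚ) ≤ a := by exact_mod_cast ha
    have ht : (0 : ℚ) ≤ t := Nat.cast_nonneg t
    have q3 := N_pos n a hn
    push_cast at s
    have i1 : a + (t + 1) = a + t + 1 := by ring
    rw [i1]
    have hpos : (0 : ℚ) < (a : ℚ) + t + 1 := by linarith
    have : ((a : ℚ) + t + 1) * T n a (a + t + 1) ≤ ((a : ℚ) + t + 1) * T n (a + t + 1) a := by
      rw [s]
      calc ((a : ℚ) + t + 1) * T n a (a + t + 1) ≤ (N n a + ((a : ℚ) + t)) * T n a (a + t) := hg
        _ ≤ (N n a + ((a : ℚ) + t)) * T n (a + t) a := by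
          apply mul_le_mul_of_nonneg_left ih (by linarith)
    exact le_of_mul_le_mul_left this hpos

/-- **Dimension form of Foulkes' conjecture.**  For all `1 ≤ a ≤ b` and all `n`, the number of
monomials of degree `a` in the monomials of degree `b` in `n` variables (that is,
`dim Sym^a (Sym^b ℂ^n)`) is at most `dim Sym^b (Sym^a ℂ^n)`. -/
theorem result (n a b : ℕ) (ha : 1 ≤ a) (hab : a ≤ b) :
    Fintype.card (Sym (Sym (Fin n) b) a) ≤ Fintype.card (Sym (Sym (Fin n) a) b) := by
  rw [Sym.card_sym_eq_multichoose, Sym.card_sym_eq_multichoose, Sym.card_sym_eq_multichoose,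
    Sym.card_sym_eq_multichoose, Fintype.card_fin]
  obtain ⟨t, rfl⟩ := Nat.exists_eq_add_of_le hab
  rcases Nat.eq_zero_or_pos n with rfl | hn
  · obtain ⟨a', rfl⟩ : ∃ a', a = a' + 1 := ⟨a - 1, by omega⟩
    have e1 : a' + 1 + t = (a' + t) + 1 := by ring
    rw [e1]
    simp
  · have := main_q n a hn ha t
    unfold T at this
    exact_mod_cast this

end Vale.Agent.Results.P181.DimIneq
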